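import Mathlib
import Vale.Agent.Lib.P125.Defs
import Vale.Agent.Lib.P125.Torus
import Vale.Agent.Lib.P125.CubeIneq
open Finset

namespace Vale.Agent.Results.P125.SmallConstant

open Vale.Agent.Lib.P125

/-- Markov type `p` with a small constant `K` forces James' J-convexity (a), a Clarkson / von
Neumann-Jordan type inequality (b), uniform non-squareness (c), and for `p = 2`, `K = 1` the
parallelogram law together with uniform smoothness of power type 2 of the given norm (d). -/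
theorem result (X : Type*) [NormedAddCommGroup X] [NormedSpace ℝ X] (p K : ℝ)
    (hX : HasMarkovType X p K) :
    (0 < p → K ^ p < 2 ^ (p - 1) →
      ∃ n : ℕ, 2 ≤ n ∧ ∃ δ : ℝ, 0 < δ ∧ ∀ x : Fin n → X, (∀ i, ‖x i‖ ≤ 1) →
        ∃ k : ℕ, k ≤ n ∧ ‖∑ i : Fin n, (if i.val < k then x i else - x i)‖ ≤ n * (1 - δ)) ∧
    (∀ u v : X, ‖u + v‖ ^ p + ‖u - v‖ ^ p ≤ (4 * K ^ p - 2 ^ (p - 1)) * (‖u‖ ^ p + ‖v‖ ^ p)) ∧
    (0 < p → K ^ p < 3 * 2 ^ (p - 3) →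
      ∃ δ : ℝ, 0 < δ ∧ ∀ u v : X, ‖u‖ ≤ 1 → ‖v‖ ≤ 1 → min ‖u + v‖ ‖u - v‖ ≤ 2 * (1 - δ)) ∧
    (p = 2 → K = 1 →
      (∀ u v : X, ‖u + v‖ ^ 2 + ‖u - v‖ ^ 2 = 2 * (‖u‖ ^ 2 + ‖v‖ ^ 2)) ∧
      (∀ (τ : ℝ) (x y : X), ‖x‖ = 1 → ‖y‖ = 1 →
        (‖x + τ • y‖ + ‖x - τ • y‖) / 2 - 1 ≤ τ ^ 2 / 2)) := by
  refine ⟨fun hp hK => jconvex p K hp hK hX, main_ineq p K hX, ?_, ?_⟩
  · intro hp hK
    set c := 4 * K ^ p - 2 ^ (p - 1) with hc
    have h2p : (0 : ℝ) < 2 ^ p := Real.rpow_pos_of_pos (by norm_num) p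
    have e1 : (2 : ℝ) ^ (p - 1) = 2 ^ p / 2 := by rw [Real.rpow_sub_one (by norm_num)]
    have e3 : (2 : ℝ) ^ (p - 3) = 2 ^ p / 8 := by
      rw [Real.rpow_sub (by norm_num)]
      norm_num
    have hc2 : c < 2 ^ p := by rw [hc, e1]; rw [e3] at hK; linarith
    set c' := max c 0 with hc'
    have hc'0 : 0 ≤ c' := le_max_right _ _
    have hc'2 : c' < 2 ^ p := max_lt hc2 h2p
    have hroot : c' ^ p⁻¹ < 2 := (Real.rpow_inv_lt_iff_of_pos hc'0 (by norm_num) hp).2 hc'2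
    refine ⟨1 - c' ^ p⁻¹ / 2, by linarith, ?_⟩
    intro u v hu hv
    have hmain := main_ineq p K hX u v
    have hU : ‖u‖ ^ p ≤ 1 := Real.rpow_le_one (norm_nonneg _) hu hp.le
    have hV : ‖v‖ ^ p ≤ 1 := Real.rpow_le_one (norm_nonneg _) hv hp.le
    have hU0 : 0 ≤ ‖u‖ ^ p := Real.rpow_nonneg (norm_nonneg _) p
    have hV0 : 0 ≤ ‖v‖ ^ p := Real.rpow_nonneg (norm_nonneg _) p
    have hμ0 : 0 ≤ min ‖u + v‖ ‖u - v‖ := le_min (norm_nonneg _) (norm_nonneg _)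
    have m1 : (min ‖u + v‖ ‖u - v‖) ^ p ≤ ‖u + v‖ ^ p :=
      Real.rpow_le_rpow hμ0 (min_le_left _ _) hp.le
    have m2 : (min ‖u + v‖ ‖u - v‖) ^ p ≤ ‖u - v‖ ^ p :=
      Real.rpow_le_rpow hμ0 (min_le_right _ _) hp.le
    have hcW : c * (‖u‖ ^ p + ‖v‖ ^ p) ≤ c' * 2 := by
      calc c * (‖u‖ ^ p + ‖v‖ ^ p) ≤ c' * (‖u‖ ^ p + ‖v‖ ^ p) :=
            mul_le_mul_of_nonneg_right (le_max_left _ _) (by linarith)
        _ ≤ c' * 2 := mul_le_mul_of_nonneg_left (by linarith) hc'0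
    have hμ : (min ‖u + v‖ ‖u - v‖) ^ p ≤ c' := by linarith
    have := (Real.le_rpow_inv_iff_of_pos hμ0 hc'0 hp).2 hμ
    linarith
  · rintro rfl rfl
    have hpar : ∀ u v : X, ‖u + v‖ ^ 2 + ‖u - v‖ ^ 2 ≤ 2 * (‖u‖ ^ 2 + ‖v‖ ^ 2) := by
      intro u v
      have := main_ineq 2 1 hX u v
      simp only [Real.rpow_two] at this
      have e : (2 : ℝ) ^ ((2 : ℝ) - 1) = 2 := by norm_num
      rw [e] at this
      linarith
    have hpar2 : ∀ u v : X, ‖u + v‖ ^ 2 + ‖u - v‖ ^ 2 = 2 * (‖u‖ ^ 2 + ‖v‖ ^ 2) := by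
      intro u v
      apply le_antisymm (hpar u v)
      have := hpar (u + v) (u - v)
      have e1 : u + v + (u - v) = (2 : ℝ) • u := by rw [two_smul]; abel
      have e2 : u + v - (u - v) = (2 : ℝ) • v := by rw [two_smul]; abel
      rw [e1, e2, norm_smul, norm_smul] at this
      simp only [Real.norm_eq_abs, abs_two] at this
      nlinarith
    refine ⟨hpar2, ?_⟩
    intro τ x y hx hy
    have h := hpar2 x (τ • y)
    rw [norm_smul, hx, hy] at h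
    simp only [Real.norm_eq_abs, mul_one, one_pow, sq_abs] at h
    have ha := norm_nonneg (x + τ • y)
    have hb := norm_nonneg (x - τ • y)
    by_contra hcon
    rw [not_le] at hcon
    nlinarith [sq_nonneg (‖x + τ • y‖ - ‖x - τ • y‖), sq_nonneg τ]

end Vale.Agent.Results.P125.SmallConstant
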